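import Vale.Agent.P088.R2.H349.FInv
import Vale.Agent.P088.R2.H464.Decay2
import Vale.Agent.P088.R2.H558.Spec

/-!
# Hypoellipticity of second order elliptic systems
-/

open MeasureTheory Set Filter Topology FourierTransform
open scoped ContDiff Real RealInnerProductSpace

noncomputable section

namespace Vale.Agent.P088.HY

open Vale.Agent.P088.R2.H464 Vale.Agent.P088.FI

section Euclid

variable {V : Type} [NormedAddCommGroup V] [InnerProductSpace ℝ V] [FiniteDimensional ℝ V]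
  [MeasurableSpace V] [BorelSpace V] {J : Type} [Fintype J]

/-- smooth functions have bounded derivatives on compact sets -/
theorem cf_of_smooth {O K : Set V} (hO : IsOpen O) (hK : IsCompact K) (hKO : K ⊆ O) (l : ℕ) :
    ∀ {a : V → ℂ}, ContDiffOn ℝ ∞ a O → Cf O K l (fun (_ : Unit) => a) := by
  have h0 : ∀ {a : V → ℂ}, ContDiffOn ℝ ∞ a O → Cf0 O K (fun (_ : Unit) => a) := by
    intro a ha
    obtain ⟨C, hC⟩ := hK.exists_bound_of_continuousOn (ha.continuousOn.mono hKO)
    exact ⟨fun _ => ha, C, fun _ x hx => hC x hx⟩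
  induction l with
  | zero => exact fun ha => .zero (h0 ha)
  | succ l ih =>
    intro a ha
    refine .succ (h0 ha) fun v => ih ?_
    unfold D
    exact (ha.fderiv_of_isOpen hO (m := ∞) (by simp)).clm_apply contDiffOn_const

theorem ofReal_smooth {O : Set V} {a : V → ℝ} (ha : ContDiffOn ℝ ∞ a O) :
    ContDiffOn ℝ ∞ (fun x => (a x : ℂ)) O := Complex.ofRealCLM.contDiff.comp_contDiffOn ha

/-- a lower bound of the determinant -/
theorem lower_bound {O K : Set V} (hK : IsCompact K) (hKO : K ⊆ O) {b : J → V} {m : ℕ}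
    (hm : 0 < m) {c : Fin m → Fin m → J → J → V → ℝ} (hc : ∀ p q i j, ContDiffOn ℝ ∞ (c p q i j) O)
    (hell : ∀ z ∈ O, ∀ ξ : V, ξ ≠ 0 →
      (Matrix.of fun p q => ∑ i, ∑ j, c p q i j z * ⟪b i, ξ⟫ * ⟪b j, ξ⟫).det ≠ 0) :
    ∃ lam : ℝ, 0 < lam ∧ ∀ x ∈ K, ∀ ξ : V, lam * ‖ξ‖ ^ (2 * m) ≤
      |(Matrix.of fun p q => ∑ i, ∑ j, c p q i j x * ⟪b i, ξ⟫ * ⟪b j, ξ⟫).det| := by
  set f : V × V → ℝ := fun z =>
    |(Matrix.of fun p q => ∑ i, ∑ j, c p q i j z.1 * ⟪b i, z.2⟫ * ⟪b j, z.2⟫).det| with hf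
  have hcont : ContinuousOn f (K ×ˢ Metric.sphere (0 : V) 1) := by
    refine continuous_abs.comp_continuousOn ?_
    simp only [Matrix.det_apply, Matrix.of_apply]
    refine continuousOn_finsetSum _ fun s _ => ContinuousOn.const_smul
      (continuousOn_finsetProd _ fun k _ => continuousOn_finsetSum _ fun i _ =>
        continuousOn_finsetSum _ fun j _ => ?_) _
    refine ContinuousOn.mul (ContinuousOn.mul ?_ ?_) ?_
    · exact ((hc _ _ i j).continuousOn.mono hKO).comp continuousOn_fst fun z hz => hz.1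
    · exact (continuous_const.inner continuous_snd).continuousOn
    · exact (continuous_const.inner continuous_snd).continuousOn
  have hcomp : IsCompact (K ×ˢ Metric.sphere (0 : V) 1) := hK.prod (isCompact_sphere 0 1)
  obtain ⟨lam, hlam, hl⟩ : ∃ lam : ℝ, 0 < lam ∧ ∀ z ∈ K ×ˢ Metric.sphere (0 : V) 1, lam ≤ f z := by
    by_cases hne : (K ×ˢ Metric.sphere (0 : V) 1).Nonempty
    · obtain ⟨z0, hz0, hmin⟩ := hcomp.exists_isMinOn hne hcont
      refine ⟨f z0, ?_, fun z hz => hmin hz⟩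
      have h1 : z0.2 ≠ 0 := by
        intro h
        have := hz0.2
        rw [h] at this
        simp at this
      exact abs_pos.2 (hell z0.1 (hKO hz0.1) z0.2 h1)
    · exact ⟨1, one_pos, fun z hz => absurd ⟨z, hz⟩ hne⟩
  refine ⟨lam, hlam, fun x hx ξ => ?_⟩
  by_cases hξ : ξ = 0
  · subst hξ
    simp only [norm_zero]
    rw [zero_pow (by omega)]
    simp
  · have hn : 0 < ‖ξ‖ := norm_pos_iff.2 hξ
    set η : V := ‖ξ‖⁻¹ • ξ with hη
    have hη1 : η ∈ Metric.sphere (0 : V) 1 := by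
      rw [mem_sphere_zero_iff_norm, hη, norm_smul, norm_inv, norm_norm, inv_mul_cancel₀ hn.ne']
    have h1 := hl (x, η) ⟨hx, hη1⟩
    have h2 : ξ = ‖ξ‖ • η := by
      rw [hη, smul_smul, mul_inv_cancel₀ hn.ne', one_smul]
    have h3 : (Matrix.of fun p q => ∑ i, ∑ j, c p q i j x * ⟪b i, ξ⟫ * ⟪b j, ξ⟫) =
        (‖ξ‖ ^ 2) • (Matrix.of fun p q => ∑ i, ∑ j, c p q i j x * ⟪b i, η⟫ * ⟪b j, η⟫) := by
      ext p q
      simp only [Matrix.of_apply, Matrix.smul_apply, smul_eq_mul, Finset.mul_sum]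
      refine Finset.sum_congr rfl fun i _ => Finset.sum_congr rfl fun j _ => ?_
      have e1 : ∀ v : V, ⟪v, ξ⟫ = ‖ξ‖ * ⟪v, η⟫ := fun v => by
        conv_lhs => rw [h2]
        rw [real_inner_smul_right]
      rw [e1, e1]
      ring
    rw [h3, Matrix.det_smul, Fintype.card_fin, abs_mul, ← pow_mul, abs_of_nonneg (by positivity)]
    rw [mul_comm lam]
    exact mul_le_mul_of_nonneg_left h1 (by positivity)

theorem re_D {φ : V → ℂ} {x : V} (hφ : DifferentiableAt ℝ φ x) (v : V) :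
    (D v φ x).re = fderiv ℝ (fun y => (φ y).re) x v := by
  unfold D
  have := (Complex.reCLM.hasFDerivAt.comp x hφ.hasFDerivAt).fderiv
  rw [show (fun y => (φ y).re) = Complex.reCLM ∘ φ from rfl, this]
  rfl

theorem im_D {φ : V → ℂ} {x : V} (hφ : DifferentiableAt ℝ φ x) (v : V) :
    (D v φ x).im = fderiv ℝ (fun y => (φ y).im) x v := by
  unfold D
  have := (Complex.imCLM.hasFDerivAt.comp x hφ.hasFDerivAt).fderiv
  rw [show (fun y => (φ y).im) = Complex.imCLM ∘ φ from rfl, this]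
  rfl

theorem re_Lop (b : J → V) (c : J → J → V → ℝ) (d : J → V → ℝ) (e : V → ℝ) {φ : V → ℂ}
    (hφ : ContDiff ℝ ∞ φ) (x : V) :
    (Lop b (fun i j x => (c i j x : ℂ)) (fun i x => (d i x : ℂ)) (fun x => (e x : ℂ)) φ x).re =
      op2 b c d e (fun y => (φ y).re) x := by
  have hd : ∀ y, DifferentiableAt ℝ φ y := fun y => hφ.differentiable (by simp) y
  have h1 : ∀ j, (fun y => (D (b j) φ y).re) = db b j (fun y => (φ y).re) := fun j => by
    funext y; exact re_D (hd y) _
  have h2 : ∀ i j, (D (b i) (D (b j) φ) x).re = db b i (db b j (fun y => (φ y).re)) x :=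
    fun i j => by
    rw [re_D ((D_contDiff hφ (b j)).differentiable (by simp) x), h1]
    rfl
  unfold Lop op2
  simp only [Complex.add_re, Complex.re_sum, Complex.re_ofReal_mul, h2]
  simp only [re_D (hd x)]
  rfl

theorem im_Lop (b : J → V) (c : J → J → V → ℝ) (d : J → V → ℝ) (e : V → ℝ) {φ : V → ℂ}
    (hφ : ContDiff ℝ ∞ φ) (x : V) :
    (Lop b (fun i j x => (c i j x : ℂ)) (fun i x => (d i x : ℂ)) (fun x => (e x : ℂ)) φ x).im =
      op2 b c d e (fun y => (φ y).im) x := by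
  have hd : ∀ y, DifferentiableAt ℝ φ y := fun y => hφ.differentiable (by simp) y
  have h1 : ∀ j, (fun y => (D (b j) φ y).im) = db b j (fun y => (φ y).im) := fun j => by
    funext y; exact im_D (hd y) _
  have h2 : ∀ i j, (D (b i) (D (b j) φ) x).im = db b i (db b j (fun y => (φ y).im)) x :=
    fun i j => by
    rw [im_D ((D_contDiff hφ (b j)).differentiable (by simp) x), h1]
    rfl
  unfold Lop op2
  simp only [Complex.add_im, Complex.im_sum, Complex.im_ofReal_mul, h2]
  simp only [im_D (hd x)]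
  rfl

theorem Lop_off {b : J → V} {c : J → J → V → ℂ} {d : J → V → ℂ} {e : V → ℂ} {φ : V → ℂ}
    {K : Set V} (hK : IsClosed K) (h0 : ∀ x ∉ K, φ x = 0) {x : V} (hx : x ∉ K) :
    Lop b c d e φ x = 0 := by
  have h1 : ∀ j, ∀ y ∉ K, D (b j) φ y = 0 := fun j y hy => D_congr_off hK h0 hy _
  have h2 : ∀ i j, D (b i) (D (b j) φ) x = 0 := fun i j => D_congr_off hK (h1 j) hx _
  unfold Lop
  simp [h2, h1 _ x hx, h0 x hx]

theorem Lop_continuousOn {b : J → V} {c : J → J → V → ℂ} {d : J → V → ℂ} {e : V → ℂ} {φ : V → ℂ}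
    {O : Set V} (hc : ∀ i j, ContinuousOn (c i j) O) (hd : ∀ i, ContinuousOn (d i) O)
    (he : ContinuousOn e O) (hφ : ContDiff ℝ ∞ φ) : ContinuousOn (Lop b c d e φ) O := by
  unfold Lop
  refine ContinuousOn.add (ContinuousOn.add ?_ ?_) (he.mul hφ.continuous.continuousOn)
  · refine continuousOn_finsetSum _ fun i _ => continuousOn_finsetSum _ fun j _ => ?_
    exact (hc i j).mul (D_contDiff (D_contDiff hφ _) _).continuous.continuousOn
  · exact continuousOn_finsetSum _ fun i _ =>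
      (hd i).mul (D_contDiff hφ _).continuous.continuousOn

/-- The weak equation for complex test functions. -/
theorem complex_weak {b : J → V} {m : ℕ} {O K : Set V} (hK : IsCompact K)
    (hKO : K ⊆ O) {c : Fin m → Fin m → J → J → V → ℝ} {d : Fin m → Fin m → J → V → ℝ}
    {e : Fin m → Fin m → V → ℝ} (hc : ∀ p q i j, ContDiffOn ℝ ∞ (c p q i j) O)
    (hd : ∀ p q i, ContDiffOn ℝ ∞ (d p q i) O) (he : ∀ p q, ContDiffOn ℝ ∞ (e p q) O)
    {w G : Fin m → V → ℝ} (hw : ∀ q, IntegrableOn (w q) K)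
    (hG : ∀ p, ContDiffOn ℝ ∞ (G p) O)
    (heq : ∀ φ : Fin m → V → ℝ, (∀ p, ContDiff ℝ ∞ (φ p) ∧ HasCompactSupport (φ p) ∧
      tsupport (φ p) ⊆ O) →
      ∫ z, ∑ q, w q z * ∑ p, op2 b (c p q) (d p q) (e p q) (φ p) z =
        ∫ z, ∑ p, G p z * φ p z)
    {φ : Fin m → V → ℂ} (hφ : ∀ p, ContDiff ℝ ∞ (φ p)) (h0 : ∀ p, ∀ x ∉ K, φ p x = 0) :
    ∫ z, ∑ q, (w q z : ℂ) * ∑ p, Lop b (fun i j x => (c p q i j x : ℂ))
        (fun i x => (d p q i x : ℂ)) (fun x => (e p q x : ℂ)) (φ p) z =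
      ∫ z, ∑ p, (G p z : ℂ) * φ p z := by
  have hKc := hK.isClosed
  have hsupp : ∀ {f : V → ℝ}, (∀ x ∉ K, f x = 0) → HasCompactSupport f ∧ tsupport f ⊆ O := by
    intro f hf
    have h1 : tsupport f ⊆ K := closure_minimal (fun x hx => by
      by_contra h
      exact hx (hf x h)) hKc
    exact ⟨HasCompactSupport.of_support_subset_isCompact hK
      ((subset_tsupport f).trans h1), h1.trans hKO⟩
  have hre := heq (fun p z => (φ p z).re) fun p =>
    ⟨Complex.reCLM.contDiff.comp (hφ p), hsupp fun x hx => by simp [h0 p x hx]⟩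
  have him := heq (fun p z => (φ p z).im) fun p =>
    ⟨Complex.imCLM.contDiff.comp (hφ p), hsupp fun x hx => by simp [h0 p x hx]⟩
  -- integrability
  have i1 : Integrable (fun z => ∑ q, (w q z : ℂ) * ∑ p, Lop b (fun i j x => (c p q i j x : ℂ))
        (fun i x => (d p q i x : ℂ)) (fun x => (e p q x : ℂ)) (φ p) z) := by
    refine integrable_finsetSum _ fun q _ => ?_
    have hcont : ContinuousOn (fun z => ∑ p, Lop b (fun i j x => (c p q i j x : ℂ))
        (fun i x => (d p q i x : ℂ)) (fun x => (e p q x : ℂ)) (φ p) z) O :=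
      continuousOn_finsetSum _ fun p _ => Lop_continuousOn
        (fun i j => (ofReal_smooth (hc p q i j)).continuousOn)
        (fun i => (ofReal_smooth (hd p q i)).continuousOn)
        (ofReal_smooth (he p q)).continuousOn (hφ p)
    have h2 : IntegrableOn (fun z => (w q z : ℂ) * ∑ p, Lop b (fun i j x => (c p q i j x : ℂ))
        (fun i x => (d p q i x : ℂ)) (fun x => (e p q x : ℂ)) (φ p) z) K :=
      IntegrableOn.mul_continuousOn (Integrable.ofReal (hw q)) (hcont.mono hKO) hK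
    refine (integrableOn_iff_integrable_of_support_subset ?_).1 h2
    intro z hz
    by_contra h
    refine hz ?_
    have : ∀ p, Lop b (fun i j x => (c p q i j x : ℂ))
        (fun i x => (d p q i x : ℂ)) (fun x => (e p q x : ℂ)) (φ p) z = 0 :=
      fun p => Lop_off hKc (h0 p) h
    simp [this]
  have i2 : Integrable (fun z => ∑ p, (G p z : ℂ) * φ p z) := by
    refine integrable_finsetSum _ fun p _ => ?_
    have h2 : IntegrableOn (fun z => (G p z : ℂ) * φ p z) K :=
      ((((ofReal_smooth (hG p)).continuousOn.mono hKO)).mul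
        (hφ p).continuous.continuousOn).integrableOn_compact hK
    refine (integrableOn_iff_integrable_of_support_subset ?_).1 h2
    intro z hz
    by_contra h
    exact hz (by simp [h0 p z h])
  -- real and imaginary parts
  apply Complex.ext
  · have e1 : (∫ z, ∑ q, (w q z : ℂ) * ∑ p, Lop b (fun i j x => (c p q i j x : ℂ))
        (fun i x => (d p q i x : ℂ)) (fun x => (e p q x : ℂ)) (φ p) z).re =
        ∫ z, ∑ q, w q z * ∑ p, op2 b (c p q) (d p q) (e p q) (fun z => (φ p z).re) z := by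
      rw [← RCLike.re_eq_complex_re, ← integral_re i1]
      refine integral_congr_ae (Eventually.of_forall fun z => ?_)
      simp only [RCLike.re_eq_complex_re, Complex.re_sum, Complex.re_ofReal_mul]
      simp only [re_Lop b _ _ _ (hφ _)]
    have e2 : (∫ z, ∑ p, (G p z : ℂ) * φ p z).re = ∫ z, ∑ p, G p z * (φ p z).re := by
      rw [← RCLike.re_eq_complex_re, ← integral_re i2]
      refine integral_congr_ae (Eventually.of_forall fun z => ?_)
      simp only [RCLike.re_eq_complex_re, Complex.re_sum, Complex.re_ofReal_mul]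
    rw [e1, e2, hre]
  · have e1 : (∫ z, ∑ q, (w q z : ℂ) * ∑ p, Lop b (fun i j x => (c p q i j x : ℂ))
        (fun i x => (d p q i x : ℂ)) (fun x => (e p q x : ℂ)) (φ p) z).im =
        ∫ z, ∑ q, w q z * ∑ p, op2 b (c p q) (d p q) (e p q) (fun z => (φ p z).im) z := by
      rw [← RCLike.im_eq_complex_im, ← integral_im i1]
      refine integral_congr_ae (Eventually.of_forall fun z => ?_)
      simp only [RCLike.im_eq_complex_im, Complex.im_sum, Complex.im_ofReal_mul]
      simp only [im_Lop b _ _ _ (hφ _)]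
    have e2 : (∫ z, ∑ p, (G p z : ℂ) * φ p z).im = ∫ z, ∑ p, G p z * (φ p z).im := by
      rw [← RCLike.im_eq_complex_im, ← integral_im i2]
      refine integral_congr_ae (Eventually.of_forall fun z => ?_)
      simp only [RCLike.im_eq_complex_im, Complex.im_sum, Complex.im_ofReal_mul]
    rw [e1, e2, him]

/-- Weak solutions are smooth (Euclidean version). -/
theorem hypE {b : J → V} {m : ℕ} {O : Set V} (hO : IsOpen O)
    {c : Fin m → Fin m → J → J → V → ℝ} {d : Fin m → Fin m → J → V → ℝ}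
    {e : Fin m → Fin m → V → ℝ} (hc : ∀ p q i j, ContDiffOn ℝ ∞ (c p q i j) O)
    (hd : ∀ p q i, ContDiffOn ℝ ∞ (d p q i) O) (he : ∀ p q, ContDiffOn ℝ ∞ (e p q) O)
    (hell : ∀ z ∈ O, ∀ ξ : V, ξ ≠ 0 →
      (Matrix.of fun p q => ∑ i, ∑ j, c p q i j z * ⟪b i, ξ⟫ * ⟪b j, ξ⟫).det ≠ 0)
    {w G : Fin m → V → ℝ} (hw : ∀ q, ∀ k : Set V, IsCompact k → k ⊆ O → IntegrableOn (w q) k)
    (hG : ∀ p, ContDiffOn ℝ ∞ (G p) O)
    (heq : ∀ φ : Fin m → V → ℝ, (∀ p, ContDiff ℝ ∞ (φ p) ∧ HasCompactSupport (φ p) ∧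
      tsupport (φ p) ⊆ O) →
      ∫ z, ∑ q, w q z * ∑ p, op2 b (c p q) (d p q) (e p q) (φ p) z =
        ∫ z, ∑ p, G p z * φ p z) :
    ∃ w' : Fin m → V → ℝ, (∀ q, ContDiffOn ℝ ∞ (w' q) O) ∧
      ∀ q, ∀ᵐ z, z ∈ O → w' q z = w q z := by
  suffices H : ∀ q, ∃ w' : V → ℝ, ContDiffOn ℝ ∞ w' O ∧ ∀ᵐ z, z ∈ O → w' z = w q z by
    choose w' h1 h2 using H
    exact ⟨w', h1, h2⟩
  intro q₀
  have hm : 0 < m := q₀.pos
  refine smooth_on_real hO fun χ hχ hχc hχO => ?_
  have hK : IsCompact (tsupport χ) := hχc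
  have hχC : ContDiff ℝ ∞ (fun x => (χ x : ℂ)) := Complex.ofRealCLM.contDiff.comp hχ
  have hint : Integrable (fun x => χ x • (w q₀ x : ℂ)) := by
    have h2 : IntegrableOn (fun x => χ x • (w q₀ x : ℂ)) (tsupport χ) := by
      have h3 : IntegrableOn (fun x => (w q₀ x : ℂ) * (χ x : ℂ)) (tsupport χ) :=
        IntegrableOn.mul_continuousOn (Integrable.ofReal (hw q₀ _ hK hχO))
          hχC.continuous.continuousOn hK
      refine h3.congr_fun (fun x _ => ?_) hK.measurableSet
      simp [mul_comm]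
    refine (integrableOn_iff_integrable_of_support_subset ?_).1 h2
    intro z hz
    by_contra h
    exact hz (by simp [image_eq_zero_of_notMem_tsupport h])
  refine ⟨hint, fun N => ?_⟩
  -- the matrix of symbols
  have hsig : ∀ (x ξ : V), sig b (fun p q i j (_ : Unit) x => (c p q i j x : ℂ)) () x ξ =
      (Matrix.of fun p q => ∑ i, ∑ j, c p q i j x * ⟪b i, ξ⟫ * ⟪b j, ξ⟫).map
        (fun r : ℝ => (r : ℂ)) := by
    intro x ξ
    ext p q
    simp only [sig, Matrix.of_apply, Matrix.map_apply]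
    push_cast
    refine Finset.sum_congr rfl fun i _ => Finset.sum_congr rfl fun j _ => ?_
    ring
  have hdet : ∀ (x ξ : V), (sig b (fun p q i j (_ : Unit) x => (c p q i j x : ℂ)) () x ξ).det =
      (((Matrix.of fun p q => ∑ i, ∑ j, c p q i j x * ⟪b i, ξ⟫ * ⟪b j, ξ⟫).det : ℝ) : ℂ) := by
    intro x ξ
    rw [hsig]
    exact (Complex.ofRealHom.map_det _).symm
  obtain ⟨lam, hlam, hl⟩ := lower_bound (b := b) hK hχO hm hc hell
  set K := tsupport χ with hKdef
  set B : ℝ := ∑ q, ∫ x in K, ‖(w q x : ℂ)‖ with hB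
  obtain ⟨C, hC, hdec⟩ := decay (T := Unit) (L := 4 * N) (b := b)
    (c := fun p q i j (_ : Unit) x => (c p q i j x : ℂ))
    (d := fun p q i (_ : Unit) x => (d p q i x : ℂ))
    (e := fun p q (_ : Unit) x => (e p q x : ℂ))
    hO hK hχO (fun p q i j => cf_of_smooth hO hK hχO _ (ofReal_smooth (hc p q i j)))
    (fun p q i => cf_of_smooth hO hK hχO _ (ofReal_smooth (hd p q i)))
    (fun p q => cf_of_smooth hO hK hχO _ (ofReal_smooth (he p q)))
    (fun _ x hx ξ hξ => by
      show (sig b (fun p q i j (_ : Unit) x => (c p q i j x : ℂ)) () x ξ).det ≠ 0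
      rw [hdet]
      exact_mod_cast hell x hx ξ hξ)
    ⟨lam, hlam, fun _ x hx ξ => by
      show lam * ‖ξ‖ ^ (2 * m) ≤
        ‖(sig b (fun p q i j (_ : Unit) x => (c p q i j x : ℂ)) () x ξ).det‖
      rw [hdet, Complex.norm_real]
      exact hl x hx ξ⟩
    (χ := fun _ x => (χ x : ℂ)) (cf_of_smooth hO hK hχO _ hχC.contDiffOn)
    (fun _ x hx => by simp [image_eq_zero_of_notMem_tsupport hx])
    (w := fun q _ x => (w q x : ℂ)) (G := fun p _ x => (G p x : ℂ))
    (fun q _ => Integrable.ofReal (hw q _ hK hχO)) (B := B)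
    (fun q _ => by
      rw [hB]
      exact Finset.single_le_sum (f := fun q => ∫ x in K, ‖(w q x : ℂ)‖)
        (fun i _ => integral_nonneg fun x => norm_nonneg _) (Finset.mem_univ q))
    (fun p => cf_of_smooth hO hK hχO _ (ofReal_smooth (hG p)))
    (fun _ φ hφ h0 => complex_weak hK hχO hc hd he (fun q => hw q _ hK hχO) hG heq hφ h0)
    N le_rfl q₀
  have hdec' : ∀ ξ : V, 1 ≤ ‖ξ‖ → ‖𝓕 (fun x => χ x • (w q₀ x : ℂ)) ξ‖ ≤ C * ‖ξ‖ ^ (-(N : ℤ)) :=
    fun ξ hξ => by
      have := hdec () ξ hξ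
      simpa using this
  refine ⟨2 ^ N * (C + ∫ x, ‖χ x • (w q₀ x : ℂ)‖), fun ξ => ?_⟩
  have hI : 0 ≤ ∫ x, ‖χ x • (w q₀ x : ℂ)‖ := integral_nonneg fun x => norm_nonneg _
  rcases le_or_gt 1 ‖ξ‖ with hξ | hξ
  · refine (hdec' ξ hξ).trans ?_
    rw [zpow_neg, zpow_natCast]
    have h1 : (1 + ‖ξ‖) ^ N ≤ 2 ^ N * ‖ξ‖ ^ N := by
      rw [← mul_pow]
      exact pow_le_pow_left₀ (by positivity) (by linarith) N
    have h2 : (‖ξ‖ ^ N)⁻¹ ≤ 2 ^ N * ((1 + ‖ξ‖) ^ N)⁻¹ := by
      have h3 : 0 < ‖ξ‖ ^ N := by positivity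
      have h4 : 0 < (1 + ‖ξ‖) ^ N := by positivity
      rw [← div_eq_mul_inv, le_div_iff₀ h4, inv_mul_le_iff₀ h3]
      linarith
    calc C * (‖ξ‖ ^ N)⁻¹ ≤ C * (2 ^ N * ((1 + ‖ξ‖) ^ N)⁻¹) := mul_le_mul_of_nonneg_left h2 hC
      _ = 2 ^ N * C * ((1 + ‖ξ‖) ^ N)⁻¹ := by ring
      _ ≤ 2 ^ N * (C + ∫ x, ‖χ x • (w q₀ x : ℂ)‖) * ((1 + ‖ξ‖) ^ N)⁻¹ := by
          gcongr
          linarith
  · have h1 : ‖𝓕 (fun x => χ x • (w q₀ x : ℂ)) ξ‖ ≤ ∫ x, ‖χ x • (w q₀ x : ℂ)‖ :=
      VectorFourier.norm_fourierIntegral_le_integral_norm _ _ _ _ _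
    have h2 : (1 : ℝ) ≤ 2 ^ N * ((1 + ‖ξ‖) ^ N)⁻¹ := by
      rw [← div_eq_mul_inv, le_div_iff₀ (by positivity), one_mul]
      exact pow_le_pow_left₀ (by positivity) (by linarith) N
    calc ‖𝓕 (fun x => χ x • (w q₀ x : ℂ)) ξ‖ ≤ (∫ x, ‖χ x • (w q₀ x : ℂ)‖) * 1 := by
          rw [mul_one]; exact h1
      _ ≤ (∫ x, ‖χ x • (w q₀ x : ℂ)‖) * (2 ^ N * ((1 + ‖ξ‖) ^ N)⁻¹) :=
          mul_le_mul_of_nonneg_left h2 hI
      _ = 2 ^ N * (∫ x, ‖χ x • (w q₀ x : ℂ)‖) * ((1 + ‖ξ‖) ^ N)⁻¹ := by ring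
      _ ≤ 2 ^ N * (C + ∫ x, ‖χ x • (w q₀ x : ℂ)‖) * ((1 + ‖ξ‖) ^ N)⁻¹ := by
          gcongr
          linarith

end Euclid

section Transport

/-- directional derivatives and linear equivalences -/
theorem db_comp {J E V : Type} [NormedAddCommGroup E] [NormedSpace ℝ E] [NormedAddCommGroup V]
    [NormedSpace ℝ V] (Φ : V ≃L[ℝ] E) (b : J → E) (i : J) (f : E → ℝ) (x : V) :
    db (fun i => Φ.symm (b i)) i (fun y => f (Φ y)) x = db b i f (Φ x) := by
  unfold db
  have h := Φ.comp_right_fderiv (f := f) (x := x)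
  rw [show (fun y => f (Φ y)) = f ∘ Φ from rfl, h]
  simp

theorem op2_comp {J E V : Type} [Fintype J] [NormedAddCommGroup E] [NormedSpace ℝ E]
    [NormedAddCommGroup V] [NormedSpace ℝ V] (Φ : V ≃L[ℝ] E) (b : J → E) (c : J → J → E → ℝ)
    (d : J → E → ℝ) (e : E → ℝ) (f : E → ℝ) (x : V) :
    op2 (fun i => Φ.symm (b i)) (fun i j y => c i j (Φ y)) (fun i y => d i (Φ y))
      (fun y => e (Φ y)) (fun y => f (Φ y)) x = op2 b c d e f (Φ x) := by
  have h1 : ∀ j, db (fun i => Φ.symm (b i)) j (fun y => f (Φ y)) = fun y => db b j f (Φ y) :=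
    fun j => funext fun y => db_comp Φ b j f y
  unfold op2
  simp only [h1, db_comp]

/-- Locally square integrable weak solutions of second order elliptic systems are smooth. -/
theorem rowHYP : RowHYP := by
  intro J E _ _ _ _ _ _ μ _ b m O hO c d e hc hd he hell w G hwm hw hG heq
  classical
  let V := EuclideanSpace ℝ J
  let Φ : V ≃L[ℝ] E := (EuclideanSpace.equiv J ℝ).trans b.equivFunL.symm
  have hΦb : ∀ i, Φ.symm (b i) = EuclideanSpace.single i (1 : ℝ) := by
    intro i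
    apply Φ.injective
    rw [ContinuousLinearEquiv.apply_symm_apply]
    show b i = b.equivFunL.symm ((EuclideanSpace.equiv J ℝ) (EuclideanSpace.single i (1 : ℝ)))
    have h1 : (EuclideanSpace.equiv J ℝ) (EuclideanSpace.single i (1 : ℝ)) = Pi.single i 1 := by
      ext j; simp [Pi.single_apply]
    rw [h1]
    apply b.equivFunL.injective
    rw [ContinuousLinearEquiv.apply_symm_apply]
    ext j
    simp [Finsupp.single_apply, Pi.single_apply, eq_comm]
  -- measures
  let ν : Measure V := μ.map Φ.symm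
  have hν : ν.IsAddHaarMeasure := Φ.symm.isAddHaarMeasure_map μ
  set κ : NNReal := Measure.addHaarScalarFactor ν volume with hκ
  have hνκ : ν = κ • (volume : Measure V) := Measure.isAddLeftInvariant_eq_smul ν volume
  have hκ0 : κ ≠ 0 := (Measure.addHaarScalarFactor_pos_of_isAddHaarMeasure ν volume).ne'
  have hmp : MeasurePreserving Φ.symm μ ν := ⟨Φ.symm.continuous.measurable, rfl⟩
  have hemb : MeasurableEmbedding (Φ.symm : E → V) := Φ.symm.toHomeomorph.measurableEmbedding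
  have hint : ∀ F : E → ℝ, ∫ z, F z ∂μ = (κ : ℝ) * ∫ x : V, F (Φ x) := by
    intro F
    have h1 : ∫ x, F (Φ x) ∂ν = ∫ z, F z ∂μ := by
      rw [← hmp.integral_comp hemb]
      refine integral_congr_ae (Eventually.of_forall fun z => ?_)
      simp
    rw [← h1, hνκ, integral_smul_nnreal_measure]
    rfl
  set O' : Set V := Φ ⁻¹' O with hO'
  have hO'o : IsOpen O' := hO.preimage Φ.continuous
  have hsm : ∀ {a : E → ℝ}, ContDiffOn ℝ ∞ a O → ContDiffOn ℝ ∞ (fun x => a (Φ x)) O' :=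
    fun ha => ha.comp Φ.contDiff.contDiffOn fun x hx => hx
  obtain ⟨w', hw's, hw'a⟩ := hypE (V := V) (J := J) (b := fun i => Φ.symm (b i)) (m := m) hO'o
    (c := fun p q i j x => c p q i j (Φ x)) (d := fun p q i x => d p q i (Φ x))
    (e := fun p q x => e p q (Φ x)) (fun p q i j => hsm (hc p q i j))
    (fun p q i => hsm (hd p q i)) (fun p q => hsm (he p q))
    (fun z hz ξ hξ => by
      have h1 : (fun i => ξ i) ≠ (0 : J → ℝ) := by
        intro h
        apply hξ
        ext i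
        exact congrFun h i
      have h2 := hell (Φ z) hz (fun i => ξ i) h1
      have h3 : ∀ i, (⟪Φ.symm (b i), ξ⟫ : ℝ) = ξ i := fun i => by
        rw [hΦb]
        exact (EuclideanSpace.inner_single_left i (1 : ℝ) ξ).trans (by simp)
      simpa only [h3] using h2)
    (w := fun q x => w q (Φ x)) (G := fun p x => G p (Φ x))
    (fun q k hk hkO => by
      -- local integrability
      have hk' : IsCompact (Φ '' k) := hk.image Φ.continuous
      have hkO' : Φ '' k ⊆ O := by rintro _ ⟨x, hx, rfl⟩; exact hkO hx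
      have h1 := hw q _ hk' hkO'
      have h2 : IntegrableOn (w q) (Φ '' k) μ := by
        have h3 : MemLp (w q) 2 (μ.restrict (Φ '' k)) :=
          (memLp_two_iff_integrable_sq (hwm q).restrict).2 h1
        have : IsFiniteMeasure (μ.restrict (Φ '' k)) :=
          ⟨by rw [Measure.restrict_apply_univ]; exact hk'.measure_lt_top⟩
        exact h3.integrable (by norm_num)
      have h4 : IntegrableOn (fun x => w q (Φ x)) k ν := by
        have h5 := (hmp.integrableOn_comp_preimage hemb (f := fun x => w q (Φ x)) (s := k)).1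
        refine h5 ?_
        have h6 : (Φ.symm : E → V) ⁻¹' k = Φ '' k := by
          ext z
          constructor
          · intro hz; exact ⟨Φ.symm z, hz, by simp⟩
          · rintro ⟨x, hx, rfl⟩; simpa using hx
        rw [h6]
        refine h2.congr_fun (fun z _ => ?_) hk'.measurableSet
        simp
      rw [hνκ] at h4
      have h7 : (κ : ENNReal) ≠ 0 := by exact_mod_cast hκ0
      have h8 : IntegrableOn (fun x => w q (Φ x)) k ((κ : ENNReal) • (volume : Measure V)) := h4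
      rw [IntegrableOn, Measure.restrict_smul] at h8
      exact (integrable_smul_measure h7 ENNReal.coe_ne_top).1 h8)
    (fun p => hsm (hG p))
    (fun φ hφ => by
      have h1 := heq (fun p z => φ p (Φ.symm z)) fun p => by
        refine ⟨(hφ p).1.comp Φ.symm.contDiff, ?_, ?_⟩
        · exact (hφ p).2.1.comp_homeomorph Φ.symm.toHomeomorph
        · have h2 : tsupport (fun z => φ p (Φ.symm z)) ⊆ Φ '' (tsupport (φ p)) := by
            refine closure_minimal (fun z hz => ?_)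
              (((hφ p).2.1.isCompact.image Φ.continuous).isClosed)
            exact ⟨Φ.symm z, subset_tsupport _ hz, by simp⟩
          refine h2.trans ?_
          rintro _ ⟨x, hx, rfl⟩
          exact (hφ p).2.2 hx
      rw [hint, hint] at h1
      have h2 := mul_left_cancel₀ (NNReal.coe_ne_zero.2 hκ0) h1
      have h3 : ∀ (p : Fin m) (x : V), (fun z => φ p (Φ.symm z)) (Φ x) = φ p x := fun p x => by
        simp
      have h4 : ∀ p q x, op2 (fun i => Φ.symm (b i)) (fun i j y => c p q i j (Φ y))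
          (fun i y => d p q i (Φ y)) (fun y => e p q (Φ y)) (φ p) x =
          op2 b (c p q) (d p q) (e p q) (fun z => φ p (Φ.symm z)) (Φ x) := by
        intro p q x
        rw [← op2_comp Φ b (c p q) (d p q) (e p q) (fun z => φ p (Φ.symm z)) x]
        congr 1
        funext y
        simp
      simp only [h4]
      simp only [ContinuousLinearEquiv.symm_apply_apply] at h2
      exact h2)
  refine ⟨fun q z => w' q (Φ.symm z), fun q => ?_, fun q => ?_⟩
  · refine (hw's q).comp Φ.symm.contDiff.contDiffOn fun z hz => ?_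
    show Φ (Φ.symm z) ∈ O
    simpa using hz
  · have h1 : ∀ᵐ x ∂ν, x ∈ O' → w' q x = w q (Φ x) := by
      rw [hνκ]
      exact Measure.ae_smul_measure (hw'a q) _
    have h2 := hmp.quasiMeasurePreserving.ae h1
    filter_upwards [h2] with z hz hzO
    have h3 := hz (by show Φ (Φ.symm z) ∈ O; simpa using hzO)
    simpa using h3

end Transport

end Vale.Agent.P088.HY
end
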