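import Mathlib

/-!
# Smoothness from the decay of Fourier transforms
-/

open MeasureTheory Set Filter Topology FourierTransform
open scoped ContDiff Real

noncomputable section

namespace Vale.Agent.P088.FI

variable {V : Type*} [NormedAddCommGroup V] [InnerProductSpace ℝ V] [FiniteDimensional ℝ V]
  [MeasurableSpace V] [BorelSpace V]

theorem continuous_fourier {f : V → ℂ} (hf : Integrable f) : Continuous (𝓕 f) :=
  VectorFourier.fourierIntegral_continuous Real.continuous_fourierChar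
    (by exact continuous_inner) hf

theorem continuous_fourierInv {f : V → ℂ} (hf : Integrable f) : Continuous (𝓕⁻ f) := by
  have h : 𝓕⁻ f = fun x => 𝓕 f (-x) := by
    ext x; exact Real.fourierInv_eq_fourier_neg f x
  rw [h]
  exact (continuous_fourier hf).comp continuous_neg

/-- Fourier inversion almost everywhere. -/
theorem inv_ae {f : V → ℂ} (hf : Integrable f) (hf' : Integrable (𝓕 f)) :
    ∀ᵐ x, 𝓕⁻ (𝓕 f) x = f x := by
  refine ae_eq_of_integral_contDiff_smul_eq (continuous_fourierInv hf').locallyIntegrable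
    hf.locallyIntegrable fun g hg hgc => ?_
  have hc1 : HasCompactSupport (fun x => (g x : ℂ)) := hgc.comp_left (g := Complex.ofReal) rfl
  have hc2 : ContDiff ℝ ∞ (fun x => (g x : ℂ)) := Complex.ofRealCLM.contDiff.comp hg
  set φ : SchwartzMap V ℂ := hc1.toSchwartzMap hc2 with hφ
  have hφx : ∀ x, φ x = (g x : ℂ) := fun x => rfl
  have e1 : ∫ x, g x • f x = ∫ x, φ x • f x := by
    refine integral_congr_ae (Eventually.of_forall fun x => ?_)
    simp [hφx]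
  have e2 : ∫ x, g x • 𝓕⁻ (𝓕 f) x = ∫ x, φ x • 𝓕⁻ (𝓕 f) x := by
    refine integral_congr_ae (Eventually.of_forall fun x => ?_)
    simp [hφx]
  rw [e1, e2]
  -- ψ = 𝓕⁻ φ
  set ψ : SchwartzMap V ℂ := 𝓕⁻ φ with hψ
  have hψφ : 𝓕 ψ = φ := by rw [hψ]; exact FourierTransform.fourier_fourierInv_eq φ
  have hψφ' : ∀ x, 𝓕 (ψ : V → ℂ) x = φ x := fun x => by
    rw [← SchwartzMap.fourier_coe, hψφ]
  have hψ' : ∀ x, (ψ x : ℂ) = 𝓕⁻ (φ : V → ℂ) x := fun x => by
    rw [← SchwartzMap.fourierInv_coe]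
  -- first
  have a1 : ∫ x, φ x • f x = ∫ x, ψ x • 𝓕 f x := by
    have := VectorFourier.integral_fourierIntegral_smul_eq_flip (e := 𝐞) (μ := volume) (ν := volume)
      (L := innerₗ V) (f := (ψ : V → ℂ)) (g := f) Real.continuous_fourierChar
      (by exact continuous_inner) ψ.integrable hf
    simp only [flip_innerₗ] at this
    refine Eq.trans ?_ this
    refine integral_congr_ae (Eventually.of_forall fun x => ?_)
    show φ x • f x = 𝓕 (ψ : V → ℂ) x • f x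
    rw [hψφ']
  have a2 : ∫ x, φ x • 𝓕⁻ (𝓕 f) x = ∫ x, ψ x • 𝓕 f x := by
    have := VectorFourier.integral_fourierIntegral_smul_eq_flip (e := 𝐞) (μ := volume) (ν := volume)
      (L := -innerₗ V) (f := (φ : V → ℂ)) (g := 𝓕 f) Real.continuous_fourierChar
      (by exact continuous_inner.neg) φ.integrable hf'
    have hfl : (-innerₗ V).flip = -innerₗ V := by
      ext x y; simp [real_inner_comm]
    rw [hfl] at this
    refine Eq.trans ?_ (this.symm.trans ?_)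
    · rfl
    · refine integral_congr_ae (Eventually.of_forall fun x => ?_)
      show 𝓕⁻ (φ : V → ℂ) x • 𝓕 f x = ψ x • 𝓕 f x
      rw [hψ']
  rw [a1, a2]

/-- The integral of `(1 + ‖ξ‖)^{-(d+1)}`. -/
def JJ (V : Type*) [NormedAddCommGroup V] [InnerProductSpace ℝ V] [FiniteDimensional ℝ V]
    [MeasurableSpace V] [BorelSpace V] : ℝ :=
  ∫ ξ : V, ((1 + ‖ξ‖) ^ (Module.finrank ℝ V + 1))⁻¹

theorem integrable_base : Integrable (fun ξ : V => ((1 + ‖ξ‖) ^ (Module.finrank ℝ V + 1))⁻¹) := by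
  have h := integrable_one_add_norm (E := V) (μ := volume)
    (r := ((Module.finrank ℝ V + 1 : ℕ) : ℝ)) (by push_cast; linarith)
  refine h.congr (Eventually.of_forall fun ξ => ?_)
  show (1 + ‖ξ‖) ^ (-((Module.finrank ℝ V + 1 : ℕ) : ℝ)) = _
  rw [Real.rpow_neg (by positivity), Real.rpow_natCast]

theorem JJ_nonneg : 0 ≤ JJ V := integral_nonneg fun ξ => by positivity

theorem weighted_le {h : V → ℂ} {k : ℕ} {C : ℝ}
    (hC : ∀ ξ, ‖h ξ‖ ≤ C * ((1 + ‖ξ‖) ^ (k + (Module.finrank ℝ V + 1)))⁻¹) {j : ℕ} (hj : j ≤ k)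
    (ξ : V) : ‖ξ‖ ^ j * ‖h ξ‖ ≤ C * ((1 + ‖ξ‖) ^ (Module.finrank ℝ V + 1))⁻¹ := by
  have h1 : (0:ℝ) < 1 + ‖ξ‖ := by positivity
  have hC0 : 0 ≤ C := by
    have := (norm_nonneg (h ξ)).trans (hC ξ)
    by_contra hneg
    have h2 : 0 < ((1 + ‖ξ‖) ^ (k + (Module.finrank ℝ V + 1)))⁻¹ := by positivity
    nlinarith
  have h3 : ‖ξ‖ ^ j ≤ (1 + ‖ξ‖) ^ k :=
    (pow_le_pow_left₀ (norm_nonneg _) (by linarith) j).trans
      (pow_le_pow_right₀ (by linarith [norm_nonneg ξ]) hj)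
  calc ‖ξ‖ ^ j * ‖h ξ‖ ≤ (1 + ‖ξ‖) ^ k * (C * ((1 + ‖ξ‖) ^ (k + (Module.finrank ℝ V + 1)))⁻¹) :=
        mul_le_mul h3 (hC ξ) (norm_nonneg _) (by positivity)
    _ = C * ((1 + ‖ξ‖) ^ (Module.finrank ℝ V + 1))⁻¹ := by
        rw [pow_add]; field_simp

theorem weighted_integrable {h : V → ℂ} (hm : AEStronglyMeasurable h) {k : ℕ} {C : ℝ}
    (hC : ∀ ξ, ‖h ξ‖ ≤ C * ((1 + ‖ξ‖) ^ (k + (Module.finrank ℝ V + 1)))⁻¹) {j : ℕ} (hj : j ≤ k) :
    Integrable (fun ξ : V => ‖ξ‖ ^ j * ‖h ξ‖) := by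
  refine (integrable_base.const_mul C).mono'
    (((continuous_norm.pow j).aestronglyMeasurable).mul hm.norm) (Eventually.of_forall fun ξ => ?_)
  rw [Real.norm_of_nonneg (by positivity)]
  exact weighted_le hC hj ξ

theorem weighted_integral_le {h : V → ℂ} (hm : AEStronglyMeasurable h) {k : ℕ} {C : ℝ}
    (hC : ∀ ξ, ‖h ξ‖ ≤ C * ((1 + ‖ξ‖) ^ (k + (Module.finrank ℝ V + 1)))⁻¹) {j : ℕ} (hj : j ≤ k) :
    ∫ ξ : V, ‖ξ‖ ^ j * ‖h ξ‖ ≤ C * JJ V := by
  rw [JJ, ← integral_const_mul]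
  exact integral_mono (weighted_integrable hm hC hj) (integrable_base.const_mul C)
    fun ξ => weighted_le hC hj ξ

/-- Derivatives of an inverse Fourier transform. -/
theorem fourierInv_deriv_le {h : V → ℂ} (hm : AEStronglyMeasurable h) {k : ℕ} {C : ℝ}
    (hC : ∀ ξ, ‖h ξ‖ ≤ C * ((1 + ‖ξ‖) ^ (k + (Module.finrank ℝ V + 1)))⁻¹) :
    ContDiff ℝ k (𝓕⁻ h) ∧ ∀ j ≤ k, ∀ x, ‖iteratedFDeriv ℝ j (𝓕⁻ h) x‖ ≤
      (2 * π) ^ j * (C * JJ V) := by
  have hneg : MeasurePreserving (fun ξ : V => -ξ) volume volume :=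
    Measure.measurePreserving_neg volume
  have hm' : AEStronglyMeasurable (fun ξ => h (-ξ)) :=
    hm.comp_measurePreserving hneg
  have hC' : ∀ ξ : V, ‖h (-ξ)‖ ≤ C * ((1 + ‖ξ‖) ^ (k + (Module.finrank ℝ V + 1)))⁻¹ := fun ξ => by
    have := hC (-ξ)
    rwa [norm_neg] at this
  have hi : ∀ n : ℕ, ((n : ℕ∞) ≤ (k : ℕ∞)) → Integrable (fun ξ : V => ‖ξ‖ ^ n * ‖h (-ξ)‖) :=
    fun n hn => weighted_integrable hm' hC' (by exact_mod_cast hn)
  have e : 𝓕⁻ h = 𝓕 (fun ξ => h (-ξ)) := Real.fourierInv_eq_fourier_comp_neg h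
  rw [e]
  refine ⟨Real.contDiff_fourier hi, fun j hj x => ?_⟩
  rw [Real.iteratedFDeriv_fourier hi hm' (by exact_mod_cast hj)]
  refine (VectorFourier.norm_fourierIntegral_le_integral_norm _ _ _ _ _).trans ?_
  have hL : ‖(innerSL ℝ : V →L[ℝ] V →L[ℝ] ℝ)‖ ≤ 1 := norm_innerSL_le _
  have b : ∀ ξ : V, ‖VectorFourier.fourierPowSMulRight (innerSL ℝ) (fun ξ => h (-ξ)) ξ j‖ ≤
      (2 * π) ^ j * (‖ξ‖ ^ j * ‖h (-ξ)‖) := fun ξ => by
    refine (VectorFourier.norm_fourierPowSMulRight_le _ _ _ _).trans ?_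
    have h1 : (2 * π * ‖(innerSL ℝ : V →L[ℝ] V →L[ℝ] ℝ)‖) ^ j ≤ (2 * π) ^ j := by
      apply pow_le_pow_left₀ (by positivity)
      have := Real.pi_pos
      nlinarith [norm_nonneg (innerSL ℝ : V →L[ℝ] V →L[ℝ] ℝ)]
    calc (2 * π * ‖(innerSL ℝ : V →L[ℝ] V →L[ℝ] ℝ)‖) ^ j * ‖ξ‖ ^ j * ‖h (-ξ)‖
        ≤ (2 * π) ^ j * ‖ξ‖ ^ j * ‖h (-ξ)‖ := by gcongr
      _ = _ := by ring
  calc ∫ ξ, ‖VectorFourier.fourierPowSMulRight (innerSL ℝ) (fun ξ => h (-ξ)) ξ j‖
      ≤ ∫ ξ : V, (2 * π) ^ j * (‖ξ‖ ^ j * ‖h (-ξ)‖) :=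
        integral_mono_of_nonneg (Eventually.of_forall fun ξ => norm_nonneg _)
          ((weighted_integrable hm' hC' hj).const_mul _) (Eventually.of_forall b)
    _ = (2 * π) ^ j * ∫ ξ : V, ‖ξ‖ ^ j * ‖h (-ξ)‖ := integral_const_mul _ _
    _ ≤ (2 * π) ^ j * (C * JJ V) := by
        have := Real.pi_pos
        exact mul_le_mul_of_nonneg_left (weighted_integral_le hm' hC' hj) (by positivity)

/-- A bound of the derivatives of a smooth function by its Fourier transform. -/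
theorem deriv_le_of_fourier {u : V → ℂ} (hu : Continuous u) (hi : Integrable u) {k : ℕ} {C : ℝ}
    (hC : ∀ ξ, ‖𝓕 u ξ‖ ≤ C * ((1 + ‖ξ‖) ^ (k + (Module.finrank ℝ V + 1)))⁻¹) :
    ∀ j ≤ k, ∀ x, ‖iteratedFDeriv ℝ j u x‖ ≤ (2 * π) ^ j * (C * JJ V) := by
  have hm : AEStronglyMeasurable (𝓕 u) := (continuous_fourier hi).aestronglyMeasurable
  have hint : Integrable (𝓕 u) := by
    have := weighted_integrable (k := k) hm hC (Nat.zero_le k)
    simp only [pow_zero, one_mul] at this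
    exact (integrable_norm_iff hm).1 this
  have h := (fourierInv_deriv_le hm hC).2
  rwa [hu.fourierInv_fourier_eq hi hint] at h

/-- A function with rapidly decreasing Fourier transform is smooth, up to a null set. -/
theorem smooth_ae {f : V → ℂ} (hf : Integrable f)
    (hd : ∀ N : ℕ, ∃ C : ℝ, ∀ ξ, ‖𝓕 f ξ‖ ≤ C * ((1 + ‖ξ‖) ^ N)⁻¹) :
    ContDiff ℝ ∞ (𝓕⁻ (𝓕 f)) ∧ ∀ᵐ x, 𝓕⁻ (𝓕 f) x = f x := by
  have hm : AEStronglyMeasurable (𝓕 f) := (continuous_fourier hf).aestronglyMeasurable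
  refine ⟨contDiff_infty.2 fun k => ?_, inv_ae hf ?_⟩
  · obtain ⟨C, hC⟩ := hd (k + (Module.finrank ℝ V + 1))
    exact (fourierInv_deriv_le hm hC).1
  · obtain ⟨C, hC⟩ := hd (0 + (Module.finrank ℝ V + 1))
    have := weighted_integrable (k := 0) hm hC le_rfl
    simp only [pow_zero, one_mul] at this
    exact (integrable_norm_iff hm).1 this

/-- Local version. -/
theorem smooth_on {O : Set V} (hO : IsOpen O) {w : V → ℂ}
    (hw : ∀ χ : V → ℝ, ContDiff ℝ ∞ χ → HasCompactSupport χ → tsupport χ ⊆ O →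
      Integrable (fun x => χ x • w x) ∧
      ∀ N : ℕ, ∃ C : ℝ, ∀ ξ, ‖𝓕 (fun x => χ x • w x) ξ‖ ≤ C * ((1 + ‖ξ‖) ^ N)⁻¹) :
    ∃ w' : V → ℂ, ContDiffOn ℝ ∞ w' O ∧ ∀ᵐ x, x ∈ O → w' x = w x := by
  classical
  -- for each point a ball and a smooth function
  have key : ∀ x : V, ∃ (r : ℝ) (g : V → ℂ), x ∈ O → 0 < r ∧ Metric.ball x r ⊆ O ∧
      ContDiff ℝ ∞ g ∧ ∀ᵐ y, y ∈ Metric.ball x r → g y = w y := by
    intro x
    by_cases hx : x ∈ O
    · obtain ⟨R, hR, hRO⟩ := Metric.isOpen_iff.1 hO x hx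
      let χ : ContDiffBump x := ⟨R / 4, R / 2, by positivity, by linarith⟩
      have hs : tsupport (χ : V → ℝ) ⊆ O := by
        rw [χ.tsupport_eq]
        exact (Metric.closedBall_subset_ball (by show R / 2 < R; linarith)).trans hRO
      obtain ⟨h1, h2⟩ := hw χ χ.contDiff χ.hasCompactSupport hs
      obtain ⟨h3, h4⟩ := smooth_ae h1 h2
      refine ⟨R / 4, _, fun _ => ⟨by positivity,
        (Metric.ball_subset_ball (by linarith)).trans hRO, h3, ?_⟩⟩
      filter_upwards [h4] with y hy hyb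
      rw [hy]
      have : χ y = 1 := χ.one_of_mem_closedBall (Metric.ball_subset_closedBall hyb)
      simp [this]
    · exact ⟨1, fun _ => 0, fun h => absurd h hx⟩
  choose r g hg using key
  refine ⟨fun x => g x x, ?_, ?_⟩
  · intro x hx
    obtain ⟨hr, hrO, hgs, hga⟩ := hg x hx
    have heq : ∀ y ∈ Metric.ball x (r x), g y y = g x y := by
      intro y hy
      obtain ⟨hr', hrO', hgs', hga'⟩ := hg y (hrO hy)
      have hopen : IsOpen (Metric.ball x (r x) ∩ Metric.ball y (r y)) :=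
        Metric.isOpen_ball.inter Metric.isOpen_ball
      have hae : g y =ᵐ[volume.restrict (Metric.ball x (r x) ∩ Metric.ball y (r y))] g x := by
        rw [Filter.EventuallyEq, ae_restrict_iff' hopen.measurableSet]
        filter_upwards [hga, hga'] with z hz hz' hzm
        rw [hz hzm.1, hz' hzm.2]
      exact Measure.eqOn_open_of_ae_eq hae hopen hgs'.continuous.continuousOn
        hgs.continuous.continuousOn ⟨hy, Metric.mem_ball_self hr'⟩
    refine (ContDiffAt.congr_of_eventuallyEq hgs.contDiffAt ?_).contDiffWithinAt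
    filter_upwards [Metric.ball_mem_nhds x hr] with y hy using heq y hy
  · have : volume {x | ¬ (x ∈ O → g x x = w x)} = 0 := by
      refine measure_null_of_locally_null _ fun x hx => ?_
      have hxO : x ∈ O := by
        by_contra h
        exact hx fun h' => absurd h' h
      obtain ⟨hr, hrO, hgs, hga⟩ := hg x hxO
      have heq : ∀ y ∈ Metric.ball x (r x), g y y = g x y := by
        intro y hy
        obtain ⟨hr', hrO', hgs', hga'⟩ := hg y (hrO hy)
        have hopen : IsOpen (Metric.ball x (r x) ∩ Metric.ball y (r y)) :=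
          Metric.isOpen_ball.inter Metric.isOpen_ball
        have hae : g y =ᵐ[volume.restrict (Metric.ball x (r x) ∩ Metric.ball y (r y))] g x := by
          rw [Filter.EventuallyEq, ae_restrict_iff' hopen.measurableSet]
          filter_upwards [hga, hga'] with z hz hz' hzm
          rw [hz hzm.1, hz' hzm.2]
        exact Measure.eqOn_open_of_ae_eq hae hopen hgs'.continuous.continuousOn
          hgs.continuous.continuousOn ⟨hy, Metric.mem_ball_self hr'⟩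
      refine ⟨{x | ¬ (x ∈ O → g x x = w x)} ∩ Metric.ball x (r x),
        inter_mem_nhdsWithin _ (Metric.ball_mem_nhds x hr), ?_⟩
      have h2 : volume {y | ¬ (y ∈ Metric.ball x (r x) → g x y = w y)} = 0 := hga
      refine measure_mono_null ?_ h2
      rintro y ⟨hy1, hy2⟩ hy3
      exact hy1 fun _ => by rw [heq y hy2, hy3 hy2]
    exact this

/-- Local version for real functions. -/
theorem smooth_on_real {O : Set V} (hO : IsOpen O) {w : V → ℝ}
    (hw : ∀ χ : V → ℝ, ContDiff ℝ ∞ χ → HasCompactSupport χ → tsupport χ ⊆ O →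
      Integrable (fun x => χ x • (w x : ℂ)) ∧
      ∀ N : ℕ, ∃ C : ℝ, ∀ ξ, ‖𝓕 (fun x => χ x • (w x : ℂ)) ξ‖ ≤ C * ((1 + ‖ξ‖) ^ N)⁻¹) :
    ∃ w' : V → ℝ, ContDiffOn ℝ ∞ w' O ∧ ∀ᵐ x, x ∈ O → w' x = w x := by
  obtain ⟨w', h1, h2⟩ := smooth_on hO hw
  refine ⟨fun x => (w' x).re, Complex.reCLM.contDiff.comp_contDiffOn h1, ?_⟩
  filter_upwards [h2] with x hx hxO
  rw [hx hxO, Complex.ofReal_re]

end Vale.Agent.P088.FI
end
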