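import Vale.Agent.P088.TM.Q.Asm
import Vale.Agent.P088.TM.Q.H332N

/-!
# P088, two manifolds: two classes

The class `K0` is used only near one point of the patch, the class `K` only in the interiors.
-/

open Bundle Manifold MeasureTheory Set Filter Topology
open scoped ContDiff

noncomputable section

set_option linter.all false

namespace Vale.Agent.P088.TM.Q

open Vale.Agent.P088.EYM hiding CUnm_statement LMatch CCont_statement CReg_statement CDiff_statement cCont cReg cDiff cDiff_ext PP SameD Gd CData_statement CMatch_statement CNear_statement CLim_statement CCoord_statement CModEq_statement CClosed_statement CGlobal_statement CChart_statement CTensor_statement wGlue wInj wClosed cUnm cMatch cChart cData cLim cCoord cModEq cClosed cGlobal cNear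

universe u

/-- Good points are closed in the interior of `W₀`, if `P` satisfies the equations in the interior
and `Q` satisfies them in the interior of `W₀`. -/
theorem wClosed2 (hLim : TM.CLim_statement.{u}) (hCoord : TM.CCoord_statement.{u})
    (hModEq : TM.CModEq_statement.{u}) (hBM : BModel_statement) (hRig : BRigInt_statement)
    (hLin : LinInt_statement) (hBSol : BSol_statement) (hMatch : TM.CMatch_statement.{u})
    (hHarm : CHarm_statement.{u}) (hU : CUniq_statement.{u}) (hLoc : CLoc_statement.{u})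
    {n N : ℕ} [NeZero n] {M₁ M₂ : Type u}
    [TopologicalSpace M₁] [ChartedSpace (EuclideanHalfSpace n) M₁]
    [IsManifold (𝓡∂ n) ∞ M₁] [T2Space M₁] [CompactSpace M₁] [ConnectedSpace M₁]
    [MeasurableSpace M₁] [BorelSpace M₁] [TopologicalSpace M₂]
    [ChartedSpace (EuclideanHalfSpace n) M₂]
    [IsManifold (𝓡∂ n) ∞ M₂] [T2Space M₂] [CompactSpace M₂] [ConnectedSpace M₂]
    [MeasurableSpace M₂] [BorelSpace M₂]
    (P : One n N M₁) (Q : One n N M₂) (G : Gl M₁ M₂) (K : Cls n N) (hn : 3 ≤ n) (hN : 0 < N)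
    (hG : G.Ok n N) (hS : SameD P Q G) {W₀ : Set M₂} (hW₀ : IsOpen W₀)
    (hMi₁ : IsOpen (Mi n M₁)) (hMi₂ : IsOpen (Mi n M₂))
    (hP : EYMw K P (Mi n M₁)) (hQ : EYMw K Q (W₀ ∩ Mi n M₂)) (x₀ : M₂) (hx₀ : x₀ ∈ Mi n M₂)
    (hx₀W : x₀ ∈ W₀) (hcl : x₀ ∈ closure (TM.Gd P Q G)) : x₀ ∈ TM.Gd P Q G := by
  have hb₁ := cClosed_bdry hG.rel₁ hG.ne₁
  have hb₂ := cClosed_bdry hG.rel₂ hG.ne₂
  obtain ⟨x₀', V₀, x, O, φ, V, hx₀', hV₀, hk, hx, hφ, hV, hlim⟩ :=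
    hLim n N M₁ M₂ P Q G hn hN hG hS x₀ hx₀ hcl
  obtain ⟨j0, s, t, hs, ht, hu1, hu2, hd1, hd2, hpos, heq⟩ :=
    hCoord n N M₁ M₂ P Q G x₀ x₀' V₀ x O φ V hn hN hG hS hx₀ hx₀' hV₀ hk hx hφ hV hlim
  have hpos' := hpos
  rw [heq] at hpos'
  have hs1 : ∀ j, ∃ f, P.Harm f (s j).1 := fun j => by
    obtain ⟨f, _, _, h1, _⟩ := hs j; exact ⟨f, h1⟩
  have hs2 : ∀ j, ∃ f, Q.Harm f (s j).2 := fun j => by
    obtain ⟨_, f, _, _, h1⟩ := hs j; exact ⟨f, h1⟩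
  have ht1 : ∀ j, ∃ f, P.Harm f (t j).1 := fun j => by
    obtain ⟨f, _, _, h1, _⟩ := ht j; exact ⟨f, h1⟩
  have ht2 : ∀ j, ∃ f, Q.Harm f (t j).2 := fun j => by
    obtain ⟨_, f, _, _, h1⟩ := ht j; exact ⟨f, h1⟩
  obtain ⟨Y₁, W₁, r₁, hr₁, h₁⟩ := wClosed_model hBM hHarm hU hLoc hN P hMi₁ hP hb₁ j0 hx₀' hx₀'
    (fun j => (s j).1) (fun a => (t a).1) hs1 ht1 hu1 hd1 hpos
  obtain ⟨Y₂, W₂, r₂, hr₂, h₂⟩ := wClosed_model hBM hHarm hU hLoc hN Q (hW₀.inter hMi₂) hQ hb₂ j0 hx₀ ⟨hx₀W, hx₀⟩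
    (fun j => (s j).2) (fun a => (t a).2) hs2 ht2 hu2 hd2 hpos'
  rw [← heq] at h₂
  set ζ := Xco j0 (frm n x₀' fun j => (s j).1) (fun a => lu (𝓡∂ n) x₀' (t a).1)
    (xc n x₀' x₀') with hζ
  obtain ⟨r, hr, hra, hrb, hrc⟩ : ∃ r, 0 < r ∧ r ≤ r₁ ∧ r ≤ r₂ ∧ r ≤ ζ 0 :=
    ⟨min (min r₁ r₂) (ζ 0), lt_min (lt_min hr₁ hr₂) hpos,
      (min_le_left _ _).trans (min_le_left _ _), (min_le_left _ _).trans (min_le_right _ _),
      min_le_right _ _⟩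
  obtain ⟨D₁, hD₁s, hD₁, hz₁, hpull₁, hmod₁, hc₁⟩ := h₁ r hr hra
  obtain ⟨D₂, hD₂s, hD₂, hz₂, hpull₂, hmod₂, hc₂⟩ := h₂ r hr hrb
  obtain ⟨hHB, hHBpos⟩ := cClosed_HB (n := n) hrc
  have hHBo : RelOpen (HB ζ r) := cClosed_relOpen_HB ζ r
  have hHBopen : IsOpen (HB ζ r) := by rw [hHB]; exact Metric.isOpen_ball
  have hHBpre : IsPreconnected (HB ζ r) := by
    rw [hHB]; exact (convex_ball ζ r).isPreconnected
  -- a large index
  have ev1 : ∀ᶠ k in atTop, x k ∈ (xc n x₀).source ∧ xc n x₀ (x k) ∈ D₂ := by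
    have e1 : ∀ᶠ k in atTop, x k ∈ (xc n x₀).source :=
      hx.eventually ((isOpen_extChartAt_source x₀).mem_nhds (mem_extChartAt_source x₀))
    have e2 : Tendsto (fun k => xc n x₀ (x k)) atTop (𝓝 (xc n x₀ x₀)) :=
      (continuousAt_extChartAt x₀).tendsto.comp hx
    obtain ⟨O₂, hO₂, rfl⟩ := hD₂
    have e3 := e2.eventually (hO₂.mem_nhds hz₂.1)
    filter_upwards [e1, e3] with k h1 h3
    refine ⟨h1, h3, ?_⟩
    exact ((hLoc n N M₂).1 x₀).subset ((xc n x₀).map_source h1)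
  have ev2 : ∀ᶠ k in atTop, φ k (x k) ∈ (xc n x₀').source ∧ xc n x₀' (φ k (x k)) ∈ D₁ := by
    have e1 : ∀ᶠ k in atTop, φ k (x k) ∈ (xc n x₀').source :=
      hφ.eventually ((isOpen_extChartAt_source x₀').mem_nhds (mem_extChartAt_source x₀'))
    have e2 : Tendsto (fun k => xc n x₀' (φ k (x k))) atTop (𝓝 (xc n x₀' x₀')) :=
      (continuousAt_extChartAt x₀').tendsto.comp hφ
    obtain ⟨O₂, hO₂, rfl⟩ := hD₁
    have e3 := e2.eventually (hO₂.mem_nhds hz₁.1)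
    filter_upwards [e1, e3] with k h1 h3
    refine ⟨h1, h3, ?_⟩
    exact ((hLoc n N M₁).1 x₀').subset ((xc n x₀').map_source h1)
  obtain ⟨k, ⟨hk1, hk2⟩, hk3, hk4⟩ := (ev1.and ev2).exists
  obtain ⟨U, hUo, hUs, hUn, hUeq, hUu⟩ := hModEq n N M₁ M₂ P Q G j0 s t x₀' x₀ ζ r W₁ W₂ D₁ D₂ Y₁ Y₂
    hs ht hD₁ hD₂ hD₁s hD₂s hpull₁ hpull₂ hc₁ hc₂ (O k) (φ k) (V k) (hk k).1 (x k) (hk k).2
    hk1 hk2 hk3 hk4
  have hEq : EqOnM W₁ W₂ (HB ζ r) :=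
    hRig n N K j0 W₁ W₂ (HB ζ r) hn hHBopen hHBpos hHBpre hmod₁ hmod₂ U hUo hUs hUn hUeq
  have hL₁ : (P.loc x₀').Ok D₁ := by
    have := (hLoc n N M₁).2.1 P x₀'
    exact ⟨fun i j => (this.g_smooth i j).mono hD₁s, fun y hy => this.g_pos y (hD₁s hy),
      fun i => (this.B_smooth i).mono hD₁s, this.h_smooth.mono hD₁s,
      fun y hy => this.h_adj y (hD₁s hy), fun y hy => this.h_pos y (hD₁s hy),
      fun y hy => this.compat y (hD₁s hy)⟩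
  have hL₂ : (Q.loc x₀).Ok D₂ := by
    have := (hLoc n N M₂).2.1 Q x₀
    exact ⟨fun i j => (this.g_smooth i j).mono hD₂s, fun y hy => this.g_pos y (hD₂s hy),
      fun i => (this.B_smooth i).mono hD₂s, this.h_smooth.mono hD₂s,
      fun y hy => this.h_adj y (hD₂s hy), fun y hy => this.h_pos y (hD₂s hy),
      fun y hy => this.compat y (hD₂s hy)⟩
  have hsec : ∀ u ∈ PP P Q G, ∀ y ∈ HB ζ r,
      Ring.inverse (frm n x₀' (fun j => (s j).1) (Y₁ y)) (lu (𝓡∂ n) x₀' u.1 (Y₁ y)) =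
      Ring.inverse (frm n x₀ (fun j => (s j).2) (Y₂ y)) (lu (𝓡∂ n) x₀ u.2 (Y₂ y)) := by
    intro u hu
    obtain ⟨f, f', _, hf1, hf2⟩ := hu
    have a1 : Sol (P.loc x₀') D₁ (lu (𝓡∂ n) x₀' u.1) := by
      have := hHarm n N M₁ P f _ hf1 x₀'
      exact ⟨this.1.mono hD₁s, fun y hy => this.2 y (hD₁s hy)⟩
    have a2 : Sol (Q.loc x₀) D₂ (lu (𝓡∂ n) x₀ u.2) := by
      have := hHarm n N M₂ Q f' _ hf2 x₀
      exact ⟨this.1.mono hD₂s, fun y hy => this.2 y (hD₂s hy)⟩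
    have b1 := cClosed_tr hBSol hD₁ hHBo hL₁ hmod₁.ok hpull₁ a1
    have b2 := cClosed_tr hBSol hD₂ hHBo hL₂ hmod₂.ok hpull₂ a2
    have b3 : Sol W₁.toLD (HB ζ r)
        (fun y => Ring.inverse (frm n x₀ (fun j => (s j).2) (Y₂ y)) (lu (𝓡∂ n) x₀ u.2 (Y₂ y))) :=
      cClosed_sol_congr hHBo hEq.g hEq.B (fun _ _ => rfl) b2
    have b4 := cClosed_sol_sub hHBo hmod₁.ok b1 b3
    have b5 := hLin n N W₁.toLD (HB ζ r) hHBopen inter_subset_right hmod₁.ok hHBpre _ b4 U hUo hUs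
      hUn (fun y hy => sub_eq_zero.2 (hUu u ⟨f, f', by assumption, hf1, hf2⟩ y hy))
    intro y hy
    exact sub_eq_zero.1 (b5 y hy)
  obtain ⟨O', φ', V', hM, hO'⟩ := hMatch n N M₁ M₂ P Q G x₀' x₀ ζ r W₁.toLD W₂.toLD D₁ D₂ _ Y₁ _ Y₂ _ _
    hD₁ hD₂ hD₁s hD₂s hpull₁ hpull₂ hEq.g hEq.B hEq.h hsec
  refine ⟨O', φ', V', hM, ?_⟩
  have := hO' (xc n x₀ x₀) hz₂ (cClosed_pos hLoc hx₀)
  rwa [extChartAt_to_inv] at this

section

variable {n N : ℕ} [NeZero n] {M₁ M₂ : Type u}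
  [TopologicalSpace M₁] [ChartedSpace (EuclideanHalfSpace n) M₁]
  [IsManifold (𝓡∂ n) ∞ M₁] [T2Space M₁] [CompactSpace M₁] [ConnectedSpace M₁]
  [MeasurableSpace M₁] [BorelSpace M₁] [TopologicalSpace M₂]
  [ChartedSpace (EuclideanHalfSpace n) M₂]
  [IsManifold (𝓡∂ n) ∞ M₂] [T2Space M₂] [CompactSpace M₂] [ConnectedSpace M₂]
  [MeasurableSpace M₂] [BorelSpace M₂]

/-- Good points fill a connected open set `W`: the class `K0` near one point of the patch, the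
class `K` in the interiors. -/
theorem wGood2 (P : One n N M₁) (Q : One n N M₂) (G : Gl M₁ M₂) (K0 K : Cls n N)
    (hn : 3 ≤ n) (hN : 0 < N) (hG : G.Ok n N) (hS : TM.SameD P Q G)
    {W₁ : Set M₁} {W₂ : Set M₂} (hW₁ : IsOpen W₁) (hW₂ : IsOpen W₂)
    (hP0 : EYMw K0 P W₁) (hQ0 : EYMw K0 Q W₂) {x : M₂} (hx : x ∈ G.Γ₂) (hx2 : x ∈ W₂)
    (hx1 : G.ψ x ∈ W₁) {W : Set M₂} (hW : IsOpen W) (hWc : IsPreconnected W) (hxW : x ∈ W)
    (hP : EYMw K P (Mi n M₁)) (hQ : EYMw K Q (W ∩ Mi n M₂)) :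
    ∀ y ∈ W ∩ Mi n M₂, y ∈ TM.Gd P Q G := by
  have hMi₁ : IsOpen (Mi n M₁) := (fConn n M₁).1
  have hMi₂ : IsOpen (Mi n M₂) := (fConn n M₂).1
  obtain ⟨p, ⟨hpΓ, hpW2, hpW⟩, O, φ, V, hm, hev⟩ := wNear n N M₁ M₂ P Q G K0 hn hN hG hS
    W₁ (W₂ ∩ W) hW₁ (hW₂.inter hW) hP0 (EYMw_mono hQ0 inter_subset_left) x hx ⟨hx2, hxW⟩ hx1
  refine wGood (fun x₀ hx₀ hx₀W hcl => wClosed2 (TM.cLim fRunge gData fLoc fConn)
    (TM.cCoord fRunge gUnm gData fUniq fLoc fConn) (TM.cModEq gUnm bIntr bSymm bComp) bModel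
    fRigInt fLinInt bSol gMatch fHarm fUniq fLoc P Q G K hn hN hG hS hW hMi₁ hMi₂ hP hQ x₀ hx₀
    hx₀W hcl) fLoc fConn hW hWc ?_
  obtain ⟨U, hUs, hUo, hpU⟩ := mem_nhds_iff.1 (inter_mem hev (hW.mem_nhds hpW))
  obtain ⟨y, hyU, hyM⟩ := mem_closure_iff.1 ((fConn n M₂).2.2 p) U hUo hpU
  exact ⟨y, (hUs hyU).2, O, φ, V, hm, (hUs hyU).1 hyM⟩

/-- Determination on a connected open set which contains one point of the patch: the class `K0`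
near this point, the class `K` in the interiors. -/
theorem wMain2 (P : One n N M₁) (Q : One n N M₂) (G : Gl M₁ M₂) (K0 K : Cls n N)
    (hn : 3 ≤ n) (hN : 0 < N) (hG : G.Ok n N) (hS : TM.SameD P Q G)
    {W₁ : Set M₁} {W₂ : Set M₂} (hW₁ : IsOpen W₁) (hW₂ : IsOpen W₂)
    (hP0 : EYMw K0 P W₁) (hQ0 : EYMw K0 Q W₂) {x : M₂} (hx : x ∈ G.Γ₂) (hx2 : x ∈ W₂)
    (hx1 : G.ψ x ∈ W₁) {W : Set M₂} (hW : IsOpen W) (hWc : IsPreconnected W) (hxW : x ∈ W)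
    (hP : EYMw K P (Mi n M₁)) (hQ : EYMw K Q (W ∩ Mi n M₂)) :
    ∃ (F : M₂ → M₁) (H : M₂ → EndF N), WMatch P Q G W F H := by
  have hgood := wGood2 P Q G K0 K hn hN hG hS hW₁ hW₂ hP0 hQ0 hx hx2 hx1 hW hWc hxW hP hQ
  obtain ⟨⟨hPs, hQs, -⟩, -⟩ := gData n N M₁ M₂ P Q G hG hS
  obtain ⟨Φ, V', hΦ⟩ := wGlue (P := P) (Q := Q) fRunge fConn (by omega) hN hG hPs hQs
  exact wFinal aExtSys bChr gUnm fLoc fConn TM.cChart fRunge P Q G (by omega) hN hG hPs hQs hW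
    Φ V' fun y hy => hΦ y (hgood y hy)

/-- The global match on the interiors, from good points. -/
theorem global2 (P : One n N M₁) (Q : One n N M₂) (G : Gl M₁ M₂)
    (hn : 3 ≤ n) (hN : 0 < N) (hG : G.Ok n N) (hS : TM.SameD P Q G)
    (hG1 : ∀ x ∈ Mi n M₂, x ∈ TM.Gd P Q G) (hG2 : ∀ x ∈ Mi n M₁, x ∈ TM.Gd Q P G.symm) :
    ∃ (Φ : M₂ → M₁) (Ψ : M₁ → M₂) (V : M₂ → EndF N) (V' : M₁ → EndF N),
      (∀ x ∈ Mi n M₂, ∃ O, x ∈ O ∧ TM.LMatch P Q G O Φ V) ∧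
      (∀ x ∈ Mi n M₁, ∃ O, x ∈ O ∧ TM.LMatch Q P G.symm O Ψ V') ∧
      (∀ x ∈ Mi n M₁, Φ (Ψ x) = x) ∧ ∀ x ∈ Mi n M₂, Ψ (Φ x) = x := by
  have hn2 : 2 ≤ n := le_trans (by norm_num) hn
  obtain ⟨⟨hP, hQ, hS'⟩, _⟩ := gData n N M₁ M₂ P Q G hG hS
  obtain ⟨Φ, V, hΦ⟩ := cGlobal_glue fRunge fConn hn2 hN hG hP hQ hG1
  obtain ⟨Ψ, V', hΨ⟩ := cGlobal_glue fRunge fConn hn2 hN hG.symm hQ hP hG2
  refine ⟨Φ, Ψ, V, V', hΦ, hΨ, ?_, ?_⟩
  · intro x hx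
    obtain ⟨O', hx', hm'⟩ := hΨ x hx
    have hy : Ψ x ∈ Mi n M₂ := hm'.maps hx'
    obtain ⟨O, hyO, hm⟩ := hΦ (Ψ x) hy
    refine (cGlobal_uniq fRunge fConn (P := P) (Q := Q) hn2 hN hG hP hQ hx (hm.maps hyO)
      (V := 1) (V' := V' x * V (Ψ x)) (one_mem _) ?_).1.symm
    intro u hu
    have e1 := hm'.sol _ (PP_swap hG hu) x hx'
    have e2 := hm.sol u hu (Ψ x) hyO
    change u.1 x = V' x (u.2 (Ψ x)) at e1
    change u.1 x = V' x (V (Ψ x) (u.1 (Φ (Ψ x))))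
    rw [← e2]
    exact e1
  · intro x hx
    obtain ⟨O, hx', hm⟩ := hΦ x hx
    have hy : Φ x ∈ Mi n M₁ := hm.maps hx'
    obtain ⟨O', hyO, hm'⟩ := hΨ (Φ x) hy
    refine (cGlobal_uniq fRunge fConn (P := Q) (Q := P) hn2 hN hG.symm hQ hP hx (hm'.maps hyO)
      (V := 1) (V' := V x * V' (Φ x)) (one_mem _) ?_).1.symm
    intro u hu
    have e1 := hm.sol _ (PP_swap hG.symm hu) x hx'
    have e2 := hm'.sol u hu (Φ x) hyO
    change u.1 x = V x (u.2 (Φ x)) at e1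
    change u.1 x = V x (V' (Φ x) (u.1 (Ψ (Φ x))))
    rw [← e2]
    exact e1

/-- From good points to the gauge equivalence. -/
theorem gauge2 (P : One n N M₁) (Q : One n N M₂) (G : Gl M₁ M₂)
    (hn : 3 ≤ n) (hN : 0 < N) (hG : G.Ok n N) (hS : TM.SameD P Q G)
    (hG1 : ∀ x ∈ Mi n M₂, x ∈ TM.Gd P Q G) (hG2 : ∀ x ∈ Mi n M₁, x ∈ TM.Gd Q P G.symm) :
    GE2 P Q G := by
  obtain ⟨Φ, Ψ, V, V', hm, hm', hinv, hinv'⟩ := global2 P Q G hn hN hG hS hG1 hG2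
  obtain ⟨F, H, hH, hFG⟩ := fDiff n N M₁ M₂ P Q G Φ Ψ V V' hm hm' hinv hinv'
  have hLM : ∀ x ∈ Mi n M₂, ∃ O, x ∈ O ∧ LMatch P Q G O F H := by
    intro x hx
    obtain ⟨O, hxO, h⟩ := hm x hx
    exact ⟨O, hxO, cMain_congr h (fun y hy => (hFG y (h.sub hy)).1)
      fun y hy => (hFG y (h.sub hy)).2⟩
  obtain ⟨hmet, hcon, huni, hsol⟩ := fTensor n N M₁ M₂ P Q G F H hH hLM
  obtain ⟨⟨hP, hQ, -⟩, -⟩ := fData n N M₁ M₂ P Q G hG hS
  obtain ⟨hIo, -, -⟩ := fConn n M₁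
  have hbd : IsClosed ((𝓡∂ n).boundary M₁) := by
    rw [← ModelWithCorners.compl_interior]
    exact hIo.isClosed_compl
  have hGu : IsSmoothUnitary (𝓡∂ n) H := ⟨hH, huni⟩
  have hFbd : ∀ p ∈ (𝓡∂ n).boundary M₂, F p ∈ (𝓡∂ n).boundary M₁ := by
    intro p hp
    rw [← ModelWithCorners.compl_interior] at hp ⊢
    intro h
    obtain ⟨O, hO, hLO⟩ := hm' (F p) h
    have h1 : Ψ (F p) ∈ Mi n M₂ := hLO.maps hO
    have h2 : F (Ψ (F p)) = F p := by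
      rw [(hFG _ h1).1]
      exact hinv _ h
    have h3 := F.injective h2
    rw [h3] at h1
    exact hp h1
  have key : ∀ p ∈ G.Γ₂, ∀ (f₁ : M₁ → Fib N) (f₂ : M₂ → Fib N), MD n G f₁ f₂ →
      f₂ p = H p (f₁ (F p)) := by
    intro p hp f₁ f₂ hf
    obtain ⟨u₁, hu₁⟩ := hP f₁ hf.h₁
    obtain ⟨u₂, hu₂⟩ := hQ f₂ hf.h₂
    have hpb : p ∈ (𝓡∂ n).boundary M₂ := sub_bd hG.rel₂ hp
    have h1 := hsol (u₁, u₂) ⟨f₁, f₂, hf, hu₁, hu₂⟩ p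
    have h2 := hu₂.boundary p hpb
    have h3 := hu₁.boundary (F p) (hFbd p hpb)
    rw [← h2, ← h3]
    exact h1
  have hfix : ∀ p ∈ G.Γ₂, F p = G.ψ p := by
    intro p hp
    by_contra hne
    obtain ⟨f, hf, hfp, hf0⟩ := cMain_bump (N := N) hbd hG.rel₁ (hG.maps hp) (V := {F p}ᶜ)
      isClosed_singleton.isOpen_compl (fun h => hne (mem_singleton_iff.1 h).symm)
      (EuclideanSpace.single (⟨0, hN⟩ : Fin N) (1 : ℂ))
    obtain ⟨f₂, hf₂, hff⟩ := hG.ext f hf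
    have h1 := key p hp f f₂ ⟨hf, hf₂, hff⟩
    rw [hff p hp, hfp, hf0 (F p) (fun h => h rfl), map_zero] at h1
    have h2 : (EuclideanSpace.single (⟨0, hN⟩ : Fin N) (1 : ℂ) : Fib N) ⟨0, hN⟩ = 0 := by
      rw [h1]
      rfl
    simp at h2
  have hone : ∀ p ∈ G.Γ₂, H p = 1 := by
    intro p hp
    refine ContinuousLinearMap.ext fun e => ?_
    obtain ⟨f, hf, hfp, -⟩ := cMain_bump (N := N) hbd hG.rel₁ (hG.maps hp) isOpen_univ
      (mem_univ _) e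
    obtain ⟨f₂, hf₂, hff⟩ := hG.ext f hf
    have h1 := key p hp f f₂ ⟨hf, hf₂, hff⟩
    rw [hff p hp, hfix p hp, hfp] at h1
    exact h1.symm
  refine ⟨F, fun x => ContinuousLinearMap.adjoint (H x),
    ⟨contMDiff_adj hH, fun x => Unitary.star_mem (huni x)⟩, fun x hx => ⟨hfix x hx, ?_⟩, hmet,
    cMain_conn P Q F hGu hcon, fun u hu x => ?_⟩
  · show ContinuousLinearMap.adjoint (H x) = 1
    rw [hone x hx]
    exact star_one (EndF N)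
  · show u.1 (F x) = ContinuousLinearMap.adjoint (H x) (u.2 x)
    rw [hsol u hu x]
    have h4 : ContinuousLinearMap.adjoint (H x) * H x = 1 := (Unitary.mem_iff.1 (huni x)).1
    have h5 := congrArg (fun T : EndF N => T (u.1 (F x))) h4
    exact h5.symm

/-- Determination of the whole manifold: the class `K0` is needed only near one point of the
patch, the class `K` only in the interiors. -/
theorem fMain2 (P : One n N M₁) (Q : One n N M₂) (G : Gl M₁ M₂) (K0 K : Cls n N)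
    (hn : 3 ≤ n) (hN : 0 < N) (hG : G.Ok n N) (hS : TM.SameD P Q G)
    {W₁ : Set M₁} {W₂ : Set M₂} (hW₁ : IsOpen W₁) (hW₂ : IsOpen W₂)
    (hP0 : EYMw K0 P W₁) (hQ0 : EYMw K0 Q W₂) {x : M₂} (hx : x ∈ G.Γ₂) (hx2 : x ∈ W₂)
    (hx1 : G.ψ x ∈ W₁) (hP : EYMw K P (Mi n M₁)) (hQ : EYMw K Q (Mi n M₂)) :
    GE2 P Q G := by
  obtain ⟨⟨-, -, hS'⟩, -⟩ := gData n N M₁ M₂ P Q G hG hS
  have hG1 : ∀ y ∈ Mi n M₂, y ∈ TM.Gd P Q G := fun y hy =>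
    wGood2 P Q G K0 K hn hN hG hS hW₁ hW₂ hP0 hQ0 hx hx2 hx1 isOpen_univ isPreconnected_univ
      (mem_univ _) hP (EYMw_mono hQ inter_subset_right) y ⟨mem_univ _, hy⟩
  have hG2 : ∀ y ∈ Mi n M₁, y ∈ TM.Gd Q P G.symm := fun y hy =>
    wGood2 Q P G.symm K0 K hn hN hG.symm hS' hW₂ hW₁ hQ0 hP0 (x := G.ψ x) (hG.maps hx) hx1
      (by show G.χ (G.ψ x) ∈ W₂; rw [hG.inv x hx]; exact hx2) isOpen_univ isPreconnected_univ
      (mem_univ _) hQ (EYMw_mono hP inter_subset_right) y ⟨mem_univ _, hy⟩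
  exact gauge2 P Q G hn hN hG hS hG1 hG2

end

end Vale.Agent.P088.TM.Q
end
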